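import Mathlib

/-!
# P162: the Thorp shuffle, definitions for the statement

The deck has `n = 2 * m` cards; positions are numbered `0, …, 2 * m - 1` from the top, so the top
half consists of the positions `i < m` and the bottom half of the positions `m + i`, `i < m`.
-/

open Finset

namespace Vale.Agent.P162

/-- One Thorp shuffle of `2 * m` cards with coins `c`, as a permutation of positions: for `i < m`
the cards in the positions `i` and `m + i` are placed in the positions `2 * i` and `2 * i + 1` of
the new deck, in this order if `c i = false` and in the opposite order if `c i = true`. -/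
def shuffle (m : ℕ) (c : Fin m → Bool) : Equiv.Perm (Fin (2 * m)) where
  toFun x :=
    if h : (x : ℕ) < m then ⟨2 * x + (if c ⟨x, h⟩ then 1 else 0), by split <;> omega⟩
    else ⟨2 * (x - m) + (if c ⟨x - m, by omega⟩ then 0 else 1), by split <;> omega⟩
  invFun y :=
    if (y : ℕ) % 2 = (if c ⟨y / 2, by omega⟩ then 1 else 0) then ⟨y / 2, by omega⟩
    else ⟨m + y / 2, by omega⟩
  left_inv x := by
    by_cases h : (x : ℕ) < m
    · cases hc : c ⟨x, h⟩
      · simp only [h, hc, dif_pos]
        have h1 : (2 * (x : ℕ) + 0) / 2 = x := by omega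
        simp [hc]
      · simp only [h, hc, dif_pos]
        have h1 : (2 * (x : ℕ) + 1) / 2 = x := by omega
        have h2 : (2 * (x : ℕ) + 1) % 2 = 1 := by omega
        simp [hc, h1, h2]
    · have h3 : (x : ℕ) - m < m := by omega
      have h4 : m + ((x : ℕ) - m) = x := by omega
      cases hc : c ⟨x - m, h3⟩
      · have h1 : (2 * ((x : ℕ) - m) + 1) / 2 = x - m := by omega
        have h2 : (2 * ((x : ℕ) - m) + 1) % 2 = 1 := by omega
        simp [h, hc, h1, h2, h4]
      · simp [h, hc, h4]
  right_inv y := by
    have h0 : (y : ℕ) / 2 < m := by omega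
    have h5 : ¬ (m + (y : ℕ) / 2 < m) := by omega
    have h6 : m + (y : ℕ) / 2 - m = y / 2 := by omega
    cases hc : c ⟨y / 2, h0⟩
    · by_cases h1 : (y : ℕ) % 2 = 0
      · apply Fin.ext
        simp [h1, h0, hc]
        omega
      · apply Fin.ext
        simp [h1, hc, h6]
        omega
    · by_cases h1 : (y : ℕ) % 2 = 1
      · apply Fin.ext
        simp [h1, h0, hc]
        omega
      · apply Fin.ext
        simp [h1, hc, h6]
        omega

/-- The law `q_n` (`n = 2 * m`) of one Thorp shuffle, the `m` coins being fair and independent. -/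
noncomputable def thorpLaw (m : ℕ) (σ : Equiv.Perm (Fin (2 * m))) : ℝ :=
  (univ.filter fun c : Fin m → Bool => shuffle m c = σ).card / 2 ^ m

section
variable {G : Type*} [Group G] [Fintype G]

/-- Convolution of two functions on a finite group. -/
def conv (μ ν : G → ℝ) (g : G) : ℝ := ∑ h, μ h * ν (h⁻¹ * g)

/-- The `t`-fold convolution power (for `t = 0` the unit mass at the identity). -/
def convPow [DecidableEq G] (μ : G → ℝ) : ℕ → G → ℝ
  | 0 => fun g => if g = 1 then 1 else 0
  | t + 1 => conv μ (convPow μ t)

/-- The uniform law. -/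
noncomputable def unif (G : Type*) [Fintype G] (_ : G) : ℝ := 1 / Fintype.card G

/-- Total variation distance. -/
noncomputable def tv (μ ν : G → ℝ) : ℝ := 1 / 2 * ∑ g, |μ g - ν g|

end

/-- The mixing time `t_mix(n)`, `n = 2 * m`, counted in single shuffles. -/
noncomputable def tmix (m : ℕ) : ℕ :=
  sInf {t : ℕ | tv (convPow (thorpLaw m) t) (unif (Equiv.Perm (Fin (2 * m)))) ≤ 1 / 4}

end Vale.Agent.P162
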