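import Mathlib

/-!
# P162: definitions for the statements handed in

The deck has `2 * m` cards, positions `0, …, 2 * m - 1` from the top.
-/

namespace Vale.Agent.P162.Statement

/-- `σ` is the permutation of positions made by one Thorp shuffle of `2 * m` cards with coins `c`:
for `i < m` the cards in the positions `i` (top half) and `m + i` (bottom half) move to the
positions `2 * i` and `2 * i + 1`, in this order if `c i = false` and in the other order if
`c i = true`. -/
def IsShuffle (m : ℕ) (c : Fin m → Bool) (σ : Equiv.Perm (Fin (2 * m))) : Prop :=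
  ∀ i : Fin m,
    (σ ⟨i, by omega⟩ : ℕ) = 2 * i + (if c i then 1 else 0) ∧
    (σ ⟨m + i, by omega⟩ : ℕ) = 2 * i + (if c i then 0 else 1)

/-- The law `q_n`, `n = 2 * m`, of one Thorp shuffle: the proportion of the `2 ^ m` coin vectors
whose shuffle is `σ`. -/
noncomputable def shuffleLaw (m : ℕ) (σ : Equiv.Perm (Fin (2 * m))) : ℝ :=
  (Nat.card {c : Fin m → Bool // IsShuffle m c σ} : ℝ) / 2 ^ m

/-- `t`-fold convolution power of a function on a finite group (`t = 0`: unit mass at `1`). -/
noncomputable def convPower {G : Type} [Group G] [Fintype G] [DecidableEq G] (μ : G → ℝ) :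
    ℕ → G → ℝ
  | 0 => fun g => if g = 1 then 1 else 0
  | t + 1 => fun g => ∑ h, μ h * convPower μ t (h⁻¹ * g)

/-- Total variation distance between `μ` and the uniform law on the finite set `G`. -/
noncomputable def distUniform {G : Type} [Fintype G] (μ : G → ℝ) : ℝ :=
  1 / 2 * ∑ g, |μ g - 1 / Fintype.card G|

/-- The set of all `t` such that the law of the deck of `2 * m` cards after `t` independent Thorp
shuffles is at total variation distance at most `1 / 4` from uniform. -/
def mixedTimes (m : ℕ) : Set ℕ := {t | distUniform (convPower (shuffleLaw m) t) ≤ 1 / 4}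

/-- The mixing time of the deck of `2 * m` cards. -/
noncomputable def mixTime (m : ℕ) : ℕ := sInf (mixedTimes m)

end Vale.Agent.P162.Statement
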